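import Mathlib
import Vale.Agent.Lib.P176.Defs
import Vale.Agent.Lib.P176.Main
import Vale.Agent.Lib.P176.Derived
import Vale.Agent.Lib.P176.RickardBig

namespace Vale.Agent.Results.P176.AllResults

open CategoryTheory Vale.Agent.Lib.P176

universe w u

/-- Three criteria for the finitistic dimension conjecture, in one statement.

(1) If injectives generate the unbounded derived category of a finite-dimensional algebra `A`,
then the big (hence the little) finitistic dimension of `A` is finite.

(2) If every simple module over a left artinian ring `A` has co-delooping level at most `n`, then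
`findim A ≤ n`.

(3) If the regular module over a left noetherian ring `A` has co-delooping level at most `n`, then
`findim A ≤ n`. -/
theorem result :
    (∀ (k : Type u) [Field k] (A : Type u) [Ring A] [Algebra k A] [FiniteDimensional k A]
      [HasDerivedCategory.{w} (ModuleCat.{u} A)],
      InjectivesGenerate.{u} (ModuleCat.{u} A) →
      ∃ n : ℕ, ∀ M : ModuleCat.{u} A, projectiveDimension M ≠ ⊤ → projectiveDimension M ≤ n) ∧
    (∀ (A : Type u) [Ring A] [IsArtinianRing A] (n : ℕ),
      (∀ S : ModuleCat.{u} A, IsSimpleModule A S → CoDeloopLE S n) →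
      ∀ M : ModuleCat.{u} A, Module.Finite A M → projectiveDimension M ≠ ⊤ →
        projectiveDimension M ≤ n) ∧
    (∀ (A : Type u) [Ring A] [IsNoetherianRing A] (n : ℕ),
      CoDeloopLE (ModuleCat.of A A) n →
      ∀ M : ModuleCat.{u} A, Module.Finite A M → projectiveDimension M ≠ ⊤ →
        projectiveDimension M ≤ n) := by
  refine ⟨?_, ?_, ?_⟩
  · intro k _ A _ _ _ _ h
    obtain ⟨n, hn⟩ := bigFindim_finite_of_injectivesGenerate k h
    refine ⟨n, fun M hpd => ?_⟩
    obtain ⟨m, hm⟩ := (projectiveDimension_ne_top_iff M).1 hpd
    rw [projectiveDimension_le_iff]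
    exact hn M (m + 1) hm
  · intro A _ _ n h M _ hM
    obtain ⟨m, hm⟩ := (projectiveDimension_ne_top_iff M).1 hM
    rw [projectiveDimension_le_iff]
    exact findim_le_of_simples n h M (m + 1) hm
  · intro A _ _ n h M _ hM
    obtain ⟨m, hm⟩ := (projectiveDimension_ne_top_iff M).1 hM
    rw [projectiveDimension_le_iff]
    exact findim_le_of_regular n h M (m + 1) hm

end Vale.Agent.Results.P176.AllResults
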