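import Mathlib
import Vale.Agent.Lib.P176.Defs
import Vale.Agent.Lib.P176.Main

namespace Vale.Agent.Results.P176.CoDeloopRegular

open CategoryTheory Vale.Agent.Lib.P176

universe u

/-- Let `A` be a left noetherian ring (for instance a finite-dimensional algebra over a field, or an
Artin algebra).  If the regular module `A` has co-delooping level at most `n`, then every
finitely generated left `A`-module of finite projective dimension has projective dimension at most
`n`; that is, `findim A ≤ n`. -/
theorem result {A : Type u} [Ring A] [IsNoetherianRing A] (n : ℕ)
    (h : CoDeloopLE (ModuleCat.of A A) n)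
    (M : ModuleCat.{u} A) [Module.Finite A M] (hM : projectiveDimension M ≠ ⊤) :
    projectiveDimension M ≤ n := by
  obtain ⟨m, hm⟩ := (projectiveDimension_ne_top_iff M).1 hM
  rw [projectiveDimension_le_iff]
  exact findim_le_of_regular n h M (m + 1) hm

end Vale.Agent.Results.P176.CoDeloopRegular
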