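import Mathlib
import Vale.Agent.Lib.P176.Derived
import Vale.Agent.Lib.P176.RickardBig

namespace Vale.Agent.Results.P176.InjectivesGenerateBig

open CategoryTheory Vale.Agent.Lib.P176

universe w u

/-- Let `A` be a finite-dimensional algebra over a field `k`.  If injectives generate for `A`, i.e.
the only localizing subcategory (triangulated, closed under small coproducts) of the unbounded
derived category `D(Mod A)` containing all injective modules is `D(Mod A)` itself, then the big
finitistic dimension of `A` is finite: there is `n` such that every left `A`-module (finitely
generated or not) of finite projective dimension has projective dimension at most `n`.  In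
particular the little finitistic dimension is at most `n`. -/
theorem result (k : Type u) [Field k] (A : Type u) [Ring A] [Algebra k A] [FiniteDimensional k A]
    [HasDerivedCategory.{w} (ModuleCat.{u} A)]
    (h : InjectivesGenerate.{u} (ModuleCat.{u} A)) :
    ∃ n : ℕ, ∀ M : ModuleCat.{u} A, projectiveDimension M ≠ ⊤ → projectiveDimension M ≤ n := by
  obtain ⟨n, hn⟩ := bigFindim_finite_of_injectivesGenerate k h
  refine ⟨n, fun M hpd => ?_⟩
  obtain ⟨m, hm⟩ := (projectiveDimension_ne_top_iff M).1 hpd
  rw [projectiveDimension_le_iff]
  exact hn M (m + 1) hm

end Vale.Agent.Results.P176.InjectivesGenerateBig
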